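import Vale.Agent.P133.R2.H252.TopSeq

/-!
P133 (helper252), row T of helper307: selection over a compact Hausdorff space with property C.
-/

set_option autoImplicit false

namespace Vale.Agent.P133.R2.H252

universe v w

variable {X : Type v} [TopologicalSpace X] {V : Type w} [NormedAddCommGroup V] [NormedSpace ℝ V]
variable [CompactSpace X] {K : Set X} {N : X → V → ℝ} {C : ℝ}

theorem selection [T2Space X]
    (hC : ∀ U : ℕ → Set (Set X), (∀ i, (∀ u ∈ U i, IsOpen u) ∧ ⋃₀ U i = Set.univ) →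
      ∃ V : ℕ → Set (Set X), (∀ i, (∀ v ∈ V i, IsOpen v ∧ ∃ u ∈ U i, v ⊆ u) ∧
        (V i).PairwiseDisjoint id) ∧ (⋃ i, ⋃₀ V i) = Set.univ)
    (h : Sem K N C) (hK : IsClosed K) :
    ∃ (m : ℕ) (φ : Fin m → C(X, ℝ)) (y : Fin m → V),
      (∀ i t, 0 ≤ φ i t ∧ φ i t ≤ 1) ∧ ∀ t ∈ K, 0 < N t (∑ i, φ i t • y i) := by
  classical
  obtain ⟨B, ρ, μ, P, h0, hSt, hcov, hB, hρ, hhalf, hμ⟩ := exists_seq h hK
  obtain ⟨W, hW, hWcov⟩ := hC (fun i => Prod.fst '' (P i)) (fun i =>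
    ⟨by rintro u ⟨p, hp, rfl⟩; exact ((hSt i).2.2 p hp).1, hcov i⟩)
  -- a finite subfamily
  let I := {q : ℕ × Set X // q.2 ∈ W q.1}
  have hopen : ∀ q : I, IsOpen q.1.2 := fun q => ((hW q.1.1).1 _ q.2).1
  obtain ⟨F, hF⟩ := isCompact_univ.elim_finite_subcover (fun q : I => q.1.2) hopen (by
    intro t _
    have : t ∈ ⋃ i, ⋃₀ W i := by rw [hWcov]; trivial
    obtain ⟨i, hi⟩ := Set.mem_iUnion.1 this
    obtain ⟨v, hv, htv⟩ := hi
    exact Set.mem_iUnion.2 ⟨⟨(i, v), hv⟩, htv⟩)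
  let st : F → ℕ := fun j => j.1.1.1
  let u : F → Set X := fun j => j.1.1.2
  have huo : ∀ j, IsOpen (u j) := fun j => hopen j.1
  have huW : ∀ j, u j ∈ W (st j) := fun j => j.1.2
  have huc : ⋃ j, u j = Set.univ := by
    refine Set.univ_subset_iff.1 fun t ht => ?_
    obtain ⟨q, hq, htq⟩ := Set.mem_iUnion₂.1 (hF ht)
    exact Set.mem_iUnion.2 ⟨⟨q, hq⟩, htq⟩
  obtain ⟨Z, hZ, hZc, hZu⟩ := exists_iUnion_eq_closed_subset huo (fun _ => Set.toFinite _) huc
  have hφ : ∀ j : F, ∃ f : C(X, ℝ), Set.EqOn f 0 (u j)ᶜ ∧ Set.EqOn f 1 (Z j) ∧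
      ∀ x, f x ∈ Set.Icc (0 : ℝ) 1 := fun j =>
    exists_continuous_zero_one_of_isClosed (huo j).isClosed_compl (hZc j)
      (Set.disjoint_left.2 fun t h1 h2 => h1 (hZu j h2))
  choose φ hφ0 hφ1 hφI using hφ
  have hp : ∀ j : F, ∃ p ∈ P (st j), u j ⊆ p.1 := by
    intro j
    obtain ⟨_, w, ⟨p, hp, rfl⟩, hw⟩ := (hW (st j)).1 _ (huW j)
    exact ⟨p, hp, hw⟩
  choose p hpP hpu using hp
  let e : Fin F.card ≃ F := F.equivFin.symm
  refine ⟨F.card, fun i => φ (e i), fun i => (p (e i)).2, fun i t => hφI _ t, fun t ht => ?_⟩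
  have hsum : ∑ i, φ (e i) t • (p (e i)).2 = ∑ j : F, φ j t • (p j).2 :=
    Equiv.sum_comp e (fun j => φ j t • (p j).2)
  rw [hsum]
  -- the member with value one
  obtain ⟨j1, hj1⟩ : ∃ j, t ∈ Z j := by
    have : t ∈ ⋃ j, Z j := by rw [hZ]; trivial
    exact Set.mem_iUnion.1 this
  have huniq : ∀ j j' : F, st j = st j' → t ∈ u j → t ∈ u j' → j = j' := by
    intro j j' hst h1 h2
    by_contra hne
    have hne' : u j ≠ u j' := fun e => hne (Subtype.ext (Subtype.ext (Prod.ext hst e)))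
    have hj' : u j' ∈ W (st j) := by rw [hst]; exact huW j'
    exact Set.disjoint_left.1 ((hW (st j)).2 (huW j) hj' hne') h1 h2
  let D : ℕ → V := fun n => ∑ j : F, if st j = n then φ j t • (p j).2 else 0
  have hDone : ∀ j0 : F, t ∈ u j0 → D (st j0) = φ j0 t • (p j0).2 := by
    intro j0 hj0
    have : D (st j0) = if st j0 = st j0 then φ j0 t • (p j0).2 else 0 := by
      refine Finset.sum_eq_single j0 (fun j _ hj => ?_) (fun hh => absurd (Finset.mem_univ _) hh)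
      by_cases hs : st j = st j0
      · rw [if_pos hs]
        have : t ∉ u j := fun hh => hj (huniq j j0 hs hh hj0)
        have h2 : φ j t = 0 := hφ0 j this
        rw [h2, zero_smul]
      · rw [if_neg hs]
    rw [this, if_pos rfl]
  have hDcase : ∀ n, D n = 0 ∨ ∃ q ∈ P n, ∃ c : ℝ, 0 ≤ c ∧ c ≤ 1 ∧ D n = c • q.2 := by
    intro n
    by_cases hex : ∃ j0 : F, st j0 = n ∧ t ∈ u j0
    · obtain ⟨j0, rfl, hj0⟩ := hex
      exact Or.inr ⟨p j0, hpP j0, φ j0 t, (hφI j0 t).1, (hφI j0 t).2, hDone j0 hj0⟩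
    · left
      refine Finset.sum_eq_zero fun j _ => ?_
      by_cases hs : st j = n
      · rw [if_pos hs]
        have : t ∉ u j := fun hh => hex ⟨j, hs, hh⟩
        have h2 : φ j t = 0 := hφ0 j this
        rw [h2, zero_smul]
      · rw [if_neg hs]
  have hDnorm : ∀ n, ‖D n‖ ≤ ρ n := by
    intro n
    rcases hDcase n with h1 | ⟨q, hq, c, hc0, hc1, h1⟩
    · rw [h1, norm_zero]; exact (hρ n).le
    · rw [h1, norm_smul, Real.norm_of_nonneg hc0]
      have h2 := ((hSt n).2.2 q hq).2.1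
      nlinarith [norm_nonneg q.2]
  have hBmem : ∀ n, ∑ k ∈ Finset.range n, D k ∈ B n := by
    intro n
    induction n with
    | zero => simpa using h0
    | succ n ih =>
      rw [Finset.sum_range_succ, hB]
      rcases hDcase n with h1 | ⟨q, hq, c, hc0, hc1, h1⟩
      · rw [h1, add_zero]; exact sub_nextB _ ih
      · rw [h1]; exact mem_nextB ih hq hc0 hc1
  -- the total sum by stages
  obtain ⟨m', hm'⟩ : ∃ m', Finset.univ.sup st + 1 = (st j1 + 1) + m' :=
    Nat.exists_eq_add_of_le (Nat.succ_le_succ (Finset.le_sup (f := st) (Finset.mem_univ j1)))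
  have htot : ∑ j : F, φ j t • (p j).2 = ∑ n ∈ Finset.range (Finset.univ.sup st + 1), D n := by
    show _ = ∑ n ∈ Finset.range (Finset.univ.sup st + 1), ∑ j : F, _
    rw [Finset.sum_comm]
    refine Finset.sum_congr rfl fun j _ => ?_
    rw [Finset.sum_ite_eq, if_pos]
    exact Finset.mem_range.2 (Nat.lt_succ_of_le (Finset.le_sup (f := st) (Finset.mem_univ j)))
  have h1t : t ∈ u j1 := hZu j1 hj1
  have hval : φ j1 t = 1 := hφ1 j1 hj1
  have hD1 : D (st j1) = (p j1).2 := by rw [hDone j1 h1t, hval, one_smul]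
  rw [htot, hm', Finset.sum_range_add, Finset.sum_range_succ, hD1]
  have hg := ((hSt (st j1)).2.2 (p j1) (hpP j1)).2.2 t (hpu j1 h1t) ht _ (hBmem (st j1))
  have hs := h.sub_le t (∑ k ∈ Finset.range (st j1), D k + (p j1).2)
    (∑ k ∈ Finset.range m', D (st j1 + 1 + k))
  have htail := tail_le hhalf hρ hDnorm (st j1 + 1) m'
  have hN := h.le t (∑ k ∈ Finset.range m', D (st j1 + 1 + k))
  have hμ1 := hμ (st j1)
  have hμ0 := (hSt (st j1)).2.1
  have hC0 := h.C0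
  have h5 : C * ‖∑ k ∈ Finset.range m', D (st j1 + 1 + k)‖ ≤ C * (2 * (μ (st j1) / (4 * (C + 1)))) :=
    mul_le_mul_of_nonneg_left (htail.trans (by linarith)) hC0
  have h6 : C * (2 * (μ (st j1) / (4 * (C + 1)))) ≤ μ (st j1) / 2 := by
    have hC1 : 0 < 4 * (C + 1) := by positivity
    have e : C * (2 * (μ (st j1) / (4 * (C + 1)))) = (C * 2 * μ (st j1)) / (4 * (C + 1)) := by
      field_simp
    rw [e, div_le_iff₀ hC1]
    nlinarith
  rw [add_comm (p j1).2] at hg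
  linarith

end Vale.Agent.P133.R2.H252
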