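import Vale.Agent.P133.R2.H307.Spec
import Vale.Agent.P133.R2.H252.TopMain

/-!
P133 (helper252), row T of helper307.
-/

set_option autoImplicit false

namespace Vale.Agent.P133.R2.H252

open Vale.Agent.P133.R2.H307

universe v w

theorem specTop : SpecTop.{v, w} := by
  intro X _ _ _ hX K hK V _ _ N C hC hadd hsmul hle hcl hbig
  exact selection hX ⟨hC, hadd, hsmul, hle, hcl, hbig⟩ hK

end Vale.Agent.P133.R2.H252
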