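import Mathlib

/-!
P133 (helper252), row T of helper307: selection over a compact Hausdorff space with property C.
-/

set_option autoImplicit false

namespace Vale.Agent.P133.R2.H252

universe v w

section Core

variable {X : Type v} [TopologicalSpace X] {V : Type w} [NormedAddCommGroup V] [NormedSpace ℝ V]

/-- The hypotheses on the seminorms. -/
structure Sem (K : Set X) (N : X → V → ℝ) (C : ℝ) : Prop where
  C0 : 0 ≤ C
  add : ∀ t y z, N t (y + z) ≤ N t y + N t z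
  smul : ∀ t (c : ℝ) y, N t (c • y) = |c| * N t y
  le : ∀ t y, N t y ≤ C * ‖y‖
  closed : ∀ y (r : ℝ), IsClosed {t | t ∈ K ∧ N t y ≤ r}
  big : ∀ t ∈ K, ∀ S : Submodule ℝ V, FiniteDimensional ℝ S → ∃ y, ∀ s ∈ S, 0 < N t (y + s)

theorem Sem.neg {K : Set X} {N : X → V → ℝ} {C : ℝ} (h : Sem K N C) (t : X) (y : V) :
    N t (-y) = N t y := by
  have := h.smul t (-1) y
  simpa using this

theorem Sem.sub_le {K : Set X} {N : X → V → ℝ} {C : ℝ} (h : Sem K N C) (t : X) (a e : V) :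
    N t a - N t e ≤ N t (a + e) := by
  have h1 := h.add t (a + e) (-e)
  rw [h.neg, add_neg_cancel_right] at h1
  linarith

/-- `y` is good for `B` on `U` with constant `μ`. -/
def GoodOn (K : Set X) (N : X → V → ℝ) (B : Set V) (U : Set X) (y : V) (μ : ℝ) : Prop :=
  ∀ s ∈ U, s ∈ K → ∀ b ∈ B, μ ≤ N s (y + b)

theorem exists_local {K : Set X} {N : X → V → ℝ} {C : ℝ} (h : Sem K N C) (hK : IsClosed K)
    {B : Set V} (hB : IsCompact B) {S : Submodule ℝ V} (hS : FiniteDimensional ℝ S)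
    (hBS : B ⊆ S) {ρ : ℝ} (hρ : 0 < ρ) (t : X) :
    ∃ U : Set X, IsOpen U ∧ t ∈ U ∧ ∃ y : V, ‖y‖ ≤ ρ ∧ ∃ μ : ℝ, 0 < μ ∧ GoodOn K N B U y μ := by
  by_cases ht : t ∈ K
  · obtain ⟨y0, hy0⟩ := h.big t ht S hS
    -- scaling
    set c : ℝ := ρ / (‖y0‖ + 1) with hc
    have hn : 0 < ‖y0‖ + 1 := by positivity
    have hc0 : 0 < c := by positivity
    have hcn : ‖c • y0‖ ≤ ρ := by
      rw [norm_smul, Real.norm_of_nonneg hc0.le, hc, div_mul_eq_mul_div, div_le_iff₀ hn]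
      nlinarith [norm_nonneg y0]
    have hpos : ∀ b ∈ B, 0 < N t (c • y0 + b) := by
      intro b hb
      have e : c • y0 + b = c • (y0 + c⁻¹ • b) := by
        rw [smul_add, smul_smul, mul_inv_cancel₀ hc0.ne', one_smul]
      rw [e, h.smul, abs_of_pos hc0]
      exact mul_pos hc0 (hy0 _ (S.smul_mem _ (hBS hb)))
    have key : ∃ U : Set X, (IsOpen U ∧ t ∈ U) ∧ ∃ μ : ℝ, 0 < μ ∧ GoodOn K N B U (c • y0) μ := by
      refine hB.induction_on (p := fun s => ∃ U : Set X, (IsOpen U ∧ t ∈ U) ∧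
        ∃ μ : ℝ, 0 < μ ∧ GoodOn K N s U (c • y0) μ) ?_ ?_ ?_ ?_
      · exact ⟨Set.univ, ⟨isOpen_univ, trivial⟩, 1, one_pos, fun _ _ _ b hb => absurd hb (by simp)⟩
      · rintro s s' hss ⟨U, hU, μ, hμ, hg⟩
        exact ⟨U, hU, μ, hμ, fun x hx hxK b hb => hg x hx hxK b (hss hb)⟩
      · rintro s s' ⟨U, hU, μ, hμ, hg⟩ ⟨U', hU', μ', hμ', hg'⟩
        refine ⟨U ∩ U', ⟨hU.1.inter hU'.1, hU.2, hU'.2⟩, min μ μ', lt_min hμ hμ', ?_⟩
        rintro x ⟨hx, hx'⟩ hxK b (hb | hb)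
        · exact (min_le_left _ _).trans (hg x hx hxK b hb)
        · exact (min_le_right _ _).trans (hg' x hx' hxK b hb)
      · intro b hb
        have hr := hpos b hb
        set r := N t (c • y0 + b) with hrd
        have hC1 : 0 < 4 * (C + 1) := by have := h.C0; positivity
        refine ⟨Metric.ball b (r / (4 * (C + 1))),
          mem_nhdsWithin_of_mem_nhds (Metric.ball_mem_nhds _ (by positivity)),
          {s | s ∈ K ∧ N s (c • y0 + b) ≤ r / 2}ᶜ, ⟨(h.closed _ _).isOpen_compl, ?_⟩,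
          r / 4, by positivity, ?_⟩
        · rintro ⟨_, h2⟩
          linarith
        · intro x hx hxK b' hb'
          have h1 : r / 2 < N x (c • y0 + b) := by
            by_contra hcon
            exact hx ⟨hxK, not_lt.1 hcon⟩
          have h2 := h.sub_le x (c • y0 + b) (b' - b)
          have e : c • y0 + b + (b' - b) = c • y0 + b' := by abel
          rw [e] at h2
          have h3 : N x (b' - b) ≤ r / 4 := by
            refine (h.le x _).trans ?_
            have h4 : ‖b' - b‖ < r / (4 * (C + 1)) := by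
              rw [← dist_eq_norm]; exact hb'
            have h5 : C * ‖b' - b‖ ≤ C * (r / (4 * (C + 1))) :=
              mul_le_mul_of_nonneg_left h4.le h.C0
            refine h5.trans ?_
            rw [← mul_div_assoc, div_le_iff₀ hC1]
            have := h.C0
            nlinarith
          linarith
    obtain ⟨U, hU, μ, hμ, hg⟩ := key
    exact ⟨U, hU.1, hU.2, c • y0, hcn, μ, hμ, hg⟩
  · exact ⟨Kᶜ, hK.isOpen_compl, ht, 0, by simpa using hρ.le, 1, one_pos,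
      fun s hs hsK => absurd hsK hs⟩

/-- One stage. -/
def Stage (K : Set X) (N : X → V → ℝ) (B : Set V) (ρ : ℝ) (P : Set (Set X × V)) (μ : ℝ) : Prop :=
  P.Finite ∧ 0 < μ ∧ ∀ p ∈ P, IsOpen p.1 ∧ ‖p.2‖ ≤ ρ ∧ GoodOn K N B p.1 p.2 μ

theorem exists_stage [CompactSpace X] {K : Set X} {N : X → V → ℝ} {C : ℝ} (h : Sem K N C)
    (hK : IsClosed K)
    {B : Set V} (hB : IsCompact B) {S : Submodule ℝ V} (hS : FiniteDimensional ℝ S)
    (hBS : B ⊆ S) {ρ : ℝ} (hρ : 0 < ρ) :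
    ∃ (P : Set (Set X × V)) (μ : ℝ), Stage K N B ρ P μ ∧ ⋃₀ (Prod.fst '' P) = Set.univ := by
  have key : ∃ (P : Set (Set X × V)) (μ : ℝ), Stage K N B ρ P μ ∧
      (Set.univ : Set X) ⊆ ⋃₀ (Prod.fst '' P) := by
    refine isCompact_univ.induction_on (p := fun s : Set X =>
      ∃ (P : Set (Set X × V)) (μ : ℝ), Stage K N B ρ P μ ∧ s ⊆ ⋃₀ (Prod.fst '' P)) ?_ ?_ ?_ ?_
    · exact ⟨∅, 1, ⟨Set.finite_empty, one_pos, by simp⟩, by simp⟩
    · rintro s s' hss ⟨P, μ, hP, hs⟩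
      exact ⟨P, μ, hP, hss.trans hs⟩
    · rintro s s' ⟨P, μ, hP, hs⟩ ⟨P', μ', hP', hs'⟩
      refine ⟨P ∪ P', min μ μ', ⟨hP.1.union hP'.1, lt_min hP.2.1 hP'.2.1, ?_⟩, ?_⟩
      · rintro p (hp | hp)
        · obtain ⟨h1, h2, h3⟩ := hP.2.2 p hp
          exact ⟨h1, h2, fun x hx hxK b hb => (min_le_left _ _).trans (h3 x hx hxK b hb)⟩
        · obtain ⟨h1, h2, h3⟩ := hP'.2.2 p hp
          exact ⟨h1, h2, fun x hx hxK b hb => (min_le_right _ _).trans (h3 x hx hxK b hb)⟩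
      · rw [Set.image_union, Set.sUnion_union]
        exact Set.union_subset_union hs hs'
    · intro t _
      obtain ⟨U, hU, htU, y, hy, μ, hμ, hg⟩ := exists_local h hK hB hS hBS hρ t
      refine ⟨U, mem_nhdsWithin_of_mem_nhds (hU.mem_nhds htU), {(U, y)}, μ,
        ⟨Set.finite_singleton _, hμ, ?_⟩, ?_⟩
      · rintro p hp
        rw [Set.mem_singleton_iff.1 hp]
        exact ⟨hU, hy, hg⟩
      · simp
  obtain ⟨P, μ, hP, hs⟩ := key
  exact ⟨P, μ, hP, Set.univ_subset_iff.1 hs⟩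

end Core

end Vale.Agent.P133.R2.H252
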