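import Vale.Agent.P133.R2.H252.TopCore

/-!
P133 (helper252), row T of helper307: the stages and the evaluation at one point.
-/

set_option autoImplicit false
set_option linter.unusedSectionVars false

namespace Vale.Agent.P133.R2.H252

universe v w

section Seq

variable {X : Type v} [TopologicalSpace X] {V : Type w} [NormedAddCommGroup V] [NormedSpace ℝ V]

/-- State of the recursion: a compact set in a finite dimensional submodule and a radius. -/
structure State (V : Type w) [NormedAddCommGroup V] [NormedSpace ℝ V] where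
  B : Set V
  S : Submodule ℝ V
  ρ : ℝ
  cpt : IsCompact B
  fd : FiniteDimensional ℝ S
  sub : B ⊆ S
  pos : 0 < ρ

/-- The next compact set. -/
def nextB (B : Set V) (P : Set (Set X × V)) : Set V :=
  (fun q : V × ℝ × V => q.1 + q.2.1 • q.2.2) '' (B ×ˢ Set.Icc (0 : ℝ) 1 ×ˢ (insert 0 (Prod.snd '' P)))

theorem mem_nextB {B : Set V} {P : Set (Set X × V)} {b : V} (hb : b ∈ B) {p : Set X × V}
    (hp : p ∈ P) {c : ℝ} (h0 : 0 ≤ c) (h1 : c ≤ 1) : b + c • p.2 ∈ nextB B P :=
  ⟨(b, c, p.2), ⟨hb, ⟨h0, h1⟩, Or.inr ⟨p, hp, rfl⟩⟩, rfl⟩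

theorem sub_nextB {B : Set V} (P : Set (Set X × V)) {b : V} (hb : b ∈ B) : b ∈ nextB B P :=
  ⟨(b, 0, 0), ⟨hb, ⟨le_refl _, zero_le_one⟩, Or.inl rfl⟩, by simp⟩

theorem compact_nextB {B : Set V} (hB : IsCompact B) {P : Set (Set X × V)} (hP : P.Finite) :
    IsCompact (nextB B P) := by
  refine (hB.prod (isCompact_Icc.prod ?_)).image (by fun_prop)
  exact (hP.image _).insert 0 |>.isCompact

theorem nextB_sub {B : Set V} {S : Submodule ℝ V} (hBS : B ⊆ S) (P : Set (Set X × V)) :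
    nextB B P ⊆ (S ⊔ Submodule.span ℝ (Prod.snd '' P) : Submodule ℝ V) := by
  rintro _ ⟨⟨b, c, y⟩, ⟨hb, _, hy⟩, rfl⟩
  refine Submodule.add_mem _ (Submodule.mem_sup_left (hBS hb)) (Submodule.smul_mem _ _ ?_)
  rcases hy with hy | hy
  · have : y = 0 := hy
    rw [this]; exact Submodule.zero_mem _
  · exact Submodule.mem_sup_right (Submodule.subset_span hy)

variable [CompactSpace X] {K : Set X} {N : X → V → ℝ} {C : ℝ}

/-- The sequence of stages. -/
theorem exists_seq (h : Sem K N C) (hK : IsClosed K) :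
    ∃ (B : ℕ → Set V) (ρ μ : ℕ → ℝ) (P : ℕ → Set (Set X × V)), (0 : V) ∈ B 0 ∧
      (∀ n, Stage K N (B n) (ρ n) (P n) (μ n)) ∧ (∀ n, ⋃₀ (Prod.fst '' (P n)) = Set.univ) ∧
      (∀ n, B (n + 1) = nextB (B n) (P n)) ∧ (∀ n, 0 < ρ n) ∧
      (∀ n, ρ (n + 1) ≤ ρ n / 2) ∧ ∀ n, ρ (n + 1) ≤ μ n / (4 * (C + 1)) := by
  classical
  have hst : ∀ s : State V, ∃ (P : Set (Set X × V)) (μ : ℝ), Stage K N s.B s.ρ P μ ∧
      ⋃₀ (Prod.fst '' P) = Set.univ := fun s =>
    exists_stage h hK s.cpt s.fd s.sub s.pos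
  choose P μ hP hcov using hst
  have hC1 : 0 < 4 * (C + 1) := by have := h.C0; positivity
  let next : State V → State V := fun s =>
    { B := nextB s.B (P s)
      S := s.S ⊔ Submodule.span ℝ (Prod.snd '' (P s))
      ρ := min (s.ρ / 2) (μ s / (4 * (C + 1)))
      cpt := compact_nextB s.cpt (hP s).1
      fd := by
        have := s.fd
        have : FiniteDimensional ℝ (Submodule.span ℝ (Prod.snd '' (P s))) :=
          FiniteDimensional.span_of_finite ℝ ((hP s).1.image _)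
        infer_instance
      sub := nextB_sub s.sub _
      pos := lt_min (half_pos s.pos) (div_pos (hP s).2.1 hC1) }
  let s0 : State V :=
    { B := {0}
      S := ⊥
      ρ := 1
      cpt := isCompact_singleton
      fd := inferInstance
      sub := by simp
      pos := one_pos }
  let s : ℕ → State V := fun n => Nat.rec s0 (fun _ => next) n
  refine ⟨fun n => (s n).B, fun n => (s n).ρ, fun n => μ (s n), fun n => P (s n), rfl,
    fun n => hP _, fun n => hcov _, fun n => rfl, fun n => (s n).pos,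
    fun n => min_le_left _ _, fun n => min_le_right _ _⟩

end Seq

section Eval

variable {V : Type w} [NormedAddCommGroup V]

theorem rho_geom {ρ : ℕ → ℝ} (hhalf : ∀ n, ρ (n + 1) ≤ ρ n / 2) (n k : ℕ) :
    ρ (n + k) ≤ ρ n / 2 ^ k := by
  induction k with
  | zero => simp
  | succ k ih =>
    calc ρ (n + (k + 1)) ≤ ρ (n + k) / 2 := hhalf (n + k)
      _ ≤ (ρ n / 2 ^ k) / 2 := by linarith
      _ = ρ n / 2 ^ (k + 1) := by rw [pow_succ]; field_simp

/-- The tail of the sum is small. -/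
theorem tail_le {ρ : ℕ → ℝ} (hhalf : ∀ n, ρ (n + 1) ≤ ρ n / 2) (hpos : ∀ n, 0 < ρ n)
    {D : ℕ → V} (hD : ∀ n, ‖D n‖ ≤ ρ n) (n m : ℕ) :
    ‖∑ k ∈ Finset.range m, D (n + k)‖ ≤ 2 * ρ n := by
  refine (norm_sum_le _ _).trans ?_
  have h1 : ∀ m, ∑ k ∈ Finset.range m, ‖D (n + k)‖ ≤ 2 * ρ n - 2 * ρ n / 2 ^ m := by
    intro m
    induction m with
    | zero => simp
    | succ m ih =>
      rw [Finset.sum_range_succ]
      have h2 := (hD (n + m)).trans (rho_geom hhalf n m)
      have h3 : 2 * ρ n / 2 ^ m = 2 * (2 * ρ n / 2 ^ (m + 1)) := by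
        rw [pow_succ]; field_simp
      have h4 : 2 * ρ n / 2 ^ (m + 1) = ρ n / 2 ^ m := by
        rw [pow_succ]; field_simp
      linarith
  have h5 : 0 ≤ 2 * ρ n / 2 ^ m := by have := hpos n; positivity
  linarith [h1 m]

end Eval

end Vale.Agent.P133.R2.H252
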